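import Crest.Agent.Helper68.S0076.GraphDefs
import Crest.Agent.Helper52.PP.Stab

/-!
# S0076 log-spread squad — leaf GL2 (helper42, hedge copy): feasibility in stabiliser form, in the
shape of helper68's Blueprint.  All the mathematics is helper52's `PP.card_stab_le`
(`Crest/Agent/Helper52/PP/Stab.lean`); this file only translates between the two dictionaries
(`PP.slotImage` vs `PP.slots`, pointwise `σ • A` vs `A.map (slotPerm σ)`).
-/

set_option autoImplicit false

namespace Crest.Agent.Helper42.S0076

open Finset Crest.Agent.Helper68.S0076 Crest.Agent.Helper68 Crest.CombinatoricsR.RandomGraph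
open scoped Pointwise

variable {n : ℕ} {W : Type} [Fintype W] [DecidableEq W]

/-- helper68's slot image of an embedding is helper52's. -/
theorem slotImage_eq_slots (H : SimpleGraph W) [DecidableRel H.Adj] (f : W ↪ Fin n) :
    PP.slotImage H f = Crest.Agent.Helper52.PP.slots H f := by
  ext s
  rw [Crest.Agent.Helper52.PP.mem_slots]
  unfold PP.slotImage
  rw [Finset.mem_image]
  constructor
  · rintro ⟨⟨e, he⟩, -, rfl⟩
    induction e using Sym2.ind with
    | _ a b =>
      exact ⟨a, b, SimpleGraph.mem_edgeFinset.1 he, rfl⟩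
  · rintro ⟨a, b, hab, hs⟩
    refine ⟨⟨s(a, b), SimpleGraph.mem_edgeFinset.2 hab⟩, Finset.mem_attach _ _, ?_⟩
    apply Subtype.ext
    rw [hs]
    rfl

/-- The pointwise action of a permutation on a set of slots is the image under `slotPerm`. -/
theorem smul_eq_map_slotPerm (σ : Equiv.Perm (Fin n)) (A : Finset (EdgeSlot n)) :
    σ • A = A.map (Crest.Agent.Helper52.PP.slotPerm σ).toEmbedding := by
  ext s
  rw [Finset.mem_smul_finset, Finset.mem_map]
  constructor
  · rintro ⟨y, hy, rfl⟩
    exact ⟨y, hy, Subtype.ext rfl⟩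
  · rintro ⟨y, hy, rfl⟩
    exact ⟨y, hy, Subtype.ext rfl⟩

theorem stab_le_of_hE (n : ℕ) (W : Type) [Fintype W] [DecidableEq W] (H : SimpleGraph W)
    [DecidableRel H.Adj] (p : ℝ) (hp0 : 0 ≤ p)
    (hE : ∀ F : H.Subgraph, (1 : ℝ) / 2 ≤
      Crest.CombinatoricsR.RandomGraph.gnpExpect n p (fun G => (G.copyCount F.coe : ℝ)))
    (f₀ : W ↪ Fin n) (A : Finset (EdgeSlot n)) (hA : A ⊆ PP.slotImage H f₀) :
    (stab (Equiv.Perm (Fin n)) A : ℝ) ≤ 2 * (n.factorial : ℝ) * p ^ A.card := by
  classical
  rw [slotImage_eq_slots] at hA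
  have h := Crest.Agent.Helper52.PP.card_stab_le H p hp0 hE f₀ A hA
  have hst : stab (Equiv.Perm (Fin n)) A
      = (Finset.univ.filter (fun σ : Equiv.Perm (Fin n) =>
          A.map (Crest.Agent.Helper52.PP.slotPerm σ).toEmbedding = A)).card := by
    unfold stab
    congr 1
    apply Finset.filter_congr
    intro σ _
    rw [smul_eq_map_slotPerm]
  rw [hst]
  convert h using 2
end Crest.Agent.Helper42.S0076
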