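import Crest.Agent.Helper68.S0076.Defs

/-!
# S0076 log-spread squad — leaf TR (helper42): translation invariance of the code weight `qw`
and of the transfer recursion `Aseq`.
-/

set_option autoImplicit false

namespace Crest.Agent.Helper42.S0076

open Finset Crest.Agent.Helper68.S0076
open scoped Pointwise

variable {G : Type*} {X : Type*} [Group G] [Fintype G] [Fintype X] [DecidableEq X] [MulAction G X]

theorem knew_smul (Z U : Finset X) (g τ : G) : knew Z (g • U) (g * τ) = knew Z U τ := by
  unfold knew
  rw [mul_smul, ← Finset.smul_finset_sdiff, Finset.card_smul_finset]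

theorem qw_smul (ω : ℝ) (E : ℕ) (Z U : Finset X) (g τ : G) :
    qw ω E Z (g • U) (g * τ) = qw ω E Z U τ := by
  unfold qw
  rw [knew_smul, Finset.card_smul_finset]

theorem Aseq_smul (Z : Finset X) (wt : Finset X → G → ℝ)
    (hwt : ∀ (g : G) (U : Finset X) (τ : G), wt (g • U) (g * τ) = wt U τ)
    (g : G) (T : ℕ) (U : Finset X) : Aseq Z wt T (g • U) = Aseq Z wt T U := by
  induction T generalizing U with
  | zero =>
    simp only [Aseq]
    by_cases hU : U = ∅
    · subst hU
      simp
    · have : g • U ≠ ∅ := by
        intro h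
        apply hU
        have := congrArg (fun V => g⁻¹ • V) h
        simpa using this
      simp [hU, this]
  | succ T ih =>
    simp only [Aseq, push]
    -- reindex `U = g • V`, `τ = g * σ`
    rw [← Equiv.sum_comp (MulAction.toPerm g : Equiv.Perm (Finset X))]
    refine Finset.sum_congr rfl (fun V _ => ?_)
    rw [← Equiv.sum_comp (Equiv.mulLeft g)]
    refine Finset.sum_congr rfl (fun σ _ => ?_)
    simp only [MulAction.toPerm_apply, Equiv.coe_mulLeft]
    have h1 : g • V ∪ (g * σ) • Z = g • (V ∪ σ • Z) := by
      rw [mul_smul, Finset.smul_finset_union]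
    have h2 : (g • V ∪ (g * σ) • Z = g • U) ↔ (V ∪ σ • Z = U) := by
      rw [h1]
      exact (MulAction.injective g).eq_iff
    rw [ih V, hwt g V σ]
    by_cases h : V ∪ σ • Z = U
    · rw [if_pos h, if_pos (h2.mpr h)]
    · rw [if_neg h, if_neg (fun h' => h (h2.mp h'))]

end Crest.Agent.Helper42.S0076
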